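import Vale.Agent.P139.H203.Prob

/-! # P139: the law of the datum charges every ball of `H^k`, for every `α > k + d/2` -/

open Set Metric Filter Topology MeasureTheory ProbabilityTheory
open scoped NNReal ENNReal ComplexConjugate

namespace Vale.Agent.P139.R2.H861

open Vale.Agent.P139.A Vale.Agent.P139.A.WA Vale.Agent.P139.H836 Vale.Agent.P139.H203

variable {d k : ℕ}

theorem gauss_pos (a : ℝ) {r : ℝ} (hr : 0 < r) :
    0 < gaussianReal 0 (1 / 2) (Ioo (a - r) (a + r)) := by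
  rw [pos_iff_ne_zero]
  intro h
  have h1 := gaussianReal_absolutelyContinuous' 0 (v := 1 / 2) (by norm_num) h
  rw [Real.volume_Ioo] at h1
  simp only [ENNReal.ofReal_eq_zero] at h1
  linarith

theorem std_pos (w : ℂ) {r : ℝ} (hr : 0 < r) : 0 < stdComplexGaussian (closedBall w r) := by
  unfold stdComplexGaussian
  rw [Measure.map_apply measurable_mkC measurableSet_closedBall]
  refine lt_of_lt_of_le ?_ (measure_mono (s := Ioo (w.re - r / 2) (w.re + r / 2) ×ˢ
    Ioo (w.im - r / 2) (w.im + r / 2)) ?_)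
  · rw [Measure.prod_prod]
    exact ENNReal.mul_pos (gauss_pos _ (half_pos hr)).ne' (gauss_pos _ (half_pos hr)).ne'
  · rintro ⟨x, y⟩ ⟨hx, hy⟩
    simp only [mem_preimage, mem_closedBall, dist_eq_norm]
    have h1 : ‖(⟨x, y⟩ : ℂ) - w‖ ≤ |x - w.re| + |y - w.im| := by
      have := Complex.norm_le_abs_re_add_abs_im ((⟨x, y⟩ : ℂ) - w)
      simpa using this
    have h2 : |x - w.re| ≤ r / 2 := abs_le.2 ⟨by linarith [hx.1], by linarith [hx.2]⟩
    have h3 : |y - w.im| ≤ r / 2 := abs_le.2 ⟨by linarith [hy.1], by linarith [hy.2]⟩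
    linarith

theorem std_moment_sq : ∫⁻ z, ‖z‖ₑ ^ 2 ∂stdComplexGaussian < ∞ := by
  unfold stdComplexGaussian
  rw [lintegral_map (by fun_prop) measurable_mkC]
  have h1 : Integrable (fun x : ℝ => x ^ 2) (gaussianReal 0 (1 / 2)) :=
    (memLp_id_gaussianReal 2).integrable_sq
  have h2 : Integrable (fun z : ℝ × ℝ => z.1 ^ 2)
      ((gaussianReal 0 (1 / 2)).prod (gaussianReal 0 (1 / 2))) := h1.comp_fst _
  have h3 : Integrable (fun z : ℝ × ℝ => z.2 ^ 2)
      ((gaussianReal 0 (1 / 2)).prod (gaussianReal 0 (1 / 2))) := h1.comp_snd _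
  refine lt_of_le_of_lt
    (lintegral_mono (g := fun z : ℝ × ℝ => ‖z.1 ^ 2‖ₑ + ‖z.2 ^ 2‖ₑ) fun z => ?_) ?_
  · have h4 : ‖(⟨z.1, z.2⟩ : ℂ)‖ ^ 2 = z.1 ^ 2 + z.2 ^ 2 := by
      rw [Complex.sq_norm, Complex.normSq_mk]
      ring
    show ‖(⟨z.1, z.2⟩ : ℂ)‖ₑ ^ 2 ≤ ‖z.1 ^ 2‖ₑ + ‖z.2 ^ 2‖ₑ
    rw [← ofReal_norm, ← ofReal_norm, ← ofReal_norm, ← ENNReal.ofReal_pow (norm_nonneg _),
      ← ENNReal.ofReal_add (norm_nonneg _) (norm_nonneg _), h4, Real.norm_of_nonneg (sq_nonneg _),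
      Real.norm_of_nonneg (sq_nonneg _)]
  · rw [lintegral_add_left (by fun_prop)]
    exact ENNReal.add_lt_top.2 ⟨h2.2, h3.2⟩

theorem meas_tail {Ω : Type*} [MeasurableSpace Ω] (g : Lat d → Ω → ℂ) (s : Finset (Lat d))
    (c : Lat d → ℝ≥0∞) (h : ∀ n ∉ s, Measurable (g n)) :
    Measurable fun ω => ∑' n, if n ∈ s then 0 else c n * ‖g n ω‖ₑ ^ 2 := by
  refine Measurable.tsum fun n => ?_
  by_cases hn : n ∈ s
  · simp only [hn, if_true]
    exact measurable_const
  · simp only [hn, if_false]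
    exact ((h n hn).enorm.pow_const 2).const_mul _

theorem meas_low {Ω : Type*} [MeasurableSpace Ω] (g : Lat d → Ω → ℂ) (b : Lat d → ℂ)
    (s : Finset (Lat d)) (r : ℝ)
    (h : ∀ n ∈ s, Measurable (g n)) : MeasurableSet (⋂ n ∈ s, g n ⁻¹' closedBall (b n) r) :=
  Finset.measurableSet_biInter _ fun n hn => h n hn measurableSet_closedBall

/-- A weighted sequence of independent complex Gaussians is `ℓ²`-close to any given weighted `ℓ²`
sequence with positive probability. -/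
theorem ball_pos {Ω : Type*} [mΩ : MeasurableSpace Ω] (P : Measure Ω) [IsProbabilityMeasure P]
    (g : Lat d → Ω → ℂ) (hm : ∀ n, Measurable (g n)) (hind : iIndepFun g P)
    (hg : ∀ n, P.map (g n) = stdComplexGaussian) {q : Lat d → ℝ} (hq0 : ∀ n, 0 ≤ q n)
    (hq : Summable q) {b : Lat d → ℂ} (hb : Summable fun n => q n * ‖b n‖ ^ 2) {ρ : ℝ}
    (hρ : 0 < ρ) :
    0 < P {ω | ∑' n, ENNReal.ofReal (q n * ‖g n ω - b n‖ ^ 2) < ENNReal.ofReal ρ} := by
  classical
  set mom : ℝ≥0∞ := ∫⁻ z, ‖z‖ₑ ^ 2 ∂stdComplexGaussian with hmom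
  have hmomT : mom ≠ ∞ := std_moment_sq.ne
  set η : ℝ := ρ / (32 * (mom.toReal + 1)) with hη
  have hm0 : 0 ≤ mom.toReal := ENNReal.toReal_nonneg
  have hη0 : 0 < η := by positivity
  have hb0 : ∀ n, 0 ≤ q n * ‖b n‖ ^ 2 := fun n => mul_nonneg (hq0 n) (sq_nonneg _)
  have hsub : ∀ f : Lat d → ℝ, Summable f → ∀ δ : ℝ, ∀ s : Finset (Lat d),
      (∑' n, f n) - δ < ∑ n ∈ s, f n → ∑' n, (if n ∈ s then 0 else f n) < δ := by
    intro f hf δ s hs
    have h1 : ∀ n, (if n ∈ s then (0 : ℝ) else f n) = f n - (if n ∈ s then f n else 0) :=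
      fun n => by split_ifs <;> simp
    have h2 : Summable fun n => if n ∈ s then f n else 0 :=
      summable_of_ne_finset_zero (s := s) fun n hn => by simp [hn]
    have h3 : (∑' n, if n ∈ s then f n else 0) = ∑ n ∈ s, f n := by
      rw [tsum_eq_sum (s := s) (fun n hn => if_neg hn)]
      exact Finset.sum_congr rfl fun n hn => if_pos hn
    rw [tsum_congr h1, hf.tsum_sub h2, h3]
    linarith
  obtain ⟨s, hs1, hs2⟩ : ∃ s : Finset (Lat d), (∑' n, q n) - η < ∑ n ∈ s, q n ∧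
      (∑' n, q n * ‖b n‖ ^ 2) - ρ / 8 < ∑ n ∈ s, q n * ‖b n‖ ^ 2 := by
    have h1 : Tendsto (fun s : Finset (Lat d) => ∑ n ∈ s, q n) atTop (𝓝 (∑' n, q n)) := hq.hasSum
    have h2 : Tendsto (fun s : Finset (Lat d) => ∑ n ∈ s, q n * ‖b n‖ ^ 2) atTop
      (𝓝 (∑' n, q n * ‖b n‖ ^ 2)) := hb.hasSum
    exact ((h1.eventually (lt_mem_nhds (sub_lt_self _ hη0))).and
      (h2.eventually (lt_mem_nhds (sub_lt_self _ (by positivity : (0 : ℝ) < ρ / 8))))).exists
  have hqt := hsub q hq η s hs1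
  have hbt := hsub _ hb (ρ / 8) s hs2
  have hq'0 : ∀ n, 0 ≤ (if n ∈ s then (0 : ℝ) else q n) := fun n => by split_ifs <;> simp [hq0]
  have hb'0 : ∀ n, 0 ≤ (if n ∈ s then (0 : ℝ) else q n * ‖b n‖ ^ 2) := fun n => by
    split_ifs
    · exact le_rfl
    · exact hb0 n
  have hq's : Summable fun n => if n ∈ s then (0 : ℝ) else q n :=
    Summable.of_nonneg_of_le hq'0 (fun n => by split_ifs <;> simp [hq0]) hq
  have hb's : Summable fun n => if n ∈ s then (0 : ℝ) else q n * ‖b n‖ ^ 2 :=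
    Summable.of_nonneg_of_le hb'0 (fun n => by
      split_ifs
      · exact hb0 n
      · exact le_rfl) hb
  -- the tail
  set τ : Ω → ℝ≥0∞ := fun ω => ∑' n, if n ∈ s then 0 else ENNReal.ofReal (q n) * ‖g n ω‖ₑ ^ 2
    with hτ
  have hτm : Measurable τ := meas_tail g s _ fun n _ => hm n
  have hτi : ∫⁻ ω, τ ω ∂P ≤ ENNReal.ofReal (ρ / 32) := by
    have h1 : ∀ n, Measurable fun ω => if n ∈ s then (0 : ℝ≥0∞) else
        ENNReal.ofReal (q n) * ‖g n ω‖ₑ ^ 2 := by
      intro n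
      by_cases hn : n ∈ s
      · simp only [hn, if_true]; exact measurable_const
      · simp only [hn, if_false]; exact ((hm n).enorm.pow_const 2).const_mul _
    simp only [hτ]
    rw [lintegral_tsum fun n => (h1 n).aemeasurable]
    have h2 : ∀ n, ∫⁻ ω, (if n ∈ s then (0 : ℝ≥0∞) else ENNReal.ofReal (q n) * ‖g n ω‖ₑ ^ 2) ∂P =
        ENNReal.ofReal (if n ∈ s then (0 : ℝ) else q n) * mom := by
      intro n
      by_cases hn : n ∈ s
      · simp [hn]
      · simp only [hn, if_false]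
        rw [lintegral_const_mul _ ((hm n).enorm.pow_const 2), hmom, ← hg n,
          lintegral_map (by fun_prop) (hm n)]
    simp_rw [h2]
    rw [ENNReal.tsum_mul_right, ← ENNReal.ofReal_tsum_of_nonneg hq'0 hq's,
      ← ENNReal.ofReal_toReal hmomT, ← ENNReal.ofReal_mul (tsum_nonneg hq'0)]
    apply ENNReal.ofReal_le_ofReal
    calc (∑' n, if n ∈ s then (0 : ℝ) else q n) * mom.toReal ≤ η * (mom.toReal + 1) := by
          gcongr
          linarith
      _ = ρ / 32 := by rw [hη]; field_simp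
  have hB : 0 < P {ω | τ ω < ENNReal.ofReal (ρ / 16)} := by
    have h1 := mul_meas_ge_le_lintegral (μ := P) hτm (ENNReal.ofReal (ρ / 16))
    have h2 : P {ω | ENNReal.ofReal (ρ / 16) ≤ τ ω} ≤ 1 / 2 := by
      have h3 : ENNReal.ofReal (ρ / 16) * P {ω | ENNReal.ofReal (ρ / 16) ≤ τ ω} ≤
          ENNReal.ofReal (ρ / 16) * (1 / 2) := by
        refine (h1.trans hτi).trans (le_of_eq ?_)
        rw [show (1 / 2 : ℝ≥0∞) = ENNReal.ofReal (1 / 2) by
          rw [ENNReal.ofReal_div_of_pos (by norm_num)]; simp, ← ENNReal.ofReal_mul (by positivity)]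
        congr 1
        ring
      exact (ENNReal.mul_le_mul_iff_right (ENNReal.ofReal_pos.2 (by positivity)).ne'
        ENNReal.ofReal_ne_top).1 h3
    have h3 : {ω | τ ω < ENNReal.ofReal (ρ / 16)} = {ω | ENNReal.ofReal (ρ / 16) ≤ τ ω}ᶜ := by
      ext ω; simp
    rw [h3, prob_compl_eq_one_sub (measurableSet_le measurable_const hτm)]
    have h4 : (1 / 2 : ℝ≥0∞) < 1 := by
      rw [one_div]; exact ENNReal.one_half_lt_one
    exact tsub_pos_of_lt (h2.trans_lt h4)
  -- the low modes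
  set Q : ℝ := ∑ n ∈ s, q n with hQ
  have hQ0 : 0 ≤ Q := Finset.sum_nonneg fun n _ => hq0 n
  set r : ℝ := Real.sqrt (ρ / (4 * (Q + 1))) with hr
  have hr0 : 0 < r := Real.sqrt_pos.2 (by positivity)
  have hr2 : r ^ 2 = ρ / (4 * (Q + 1)) := Real.sq_sqrt (by positivity)
  have hA : 0 < P (⋂ n ∈ s, g n ⁻¹' closedBall (b n) r) := by
    rw [hind.measure_inter_preimage_eq_mul s fun n _ => measurableSet_closedBall]
    rw [pos_iff_ne_zero, Finset.prod_ne_zero_iff]
    intro n _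
    rw [← Measure.map_apply (hm n) measurableSet_closedBall, hg n]
    exact (std_pos _ hr0).ne'
  -- independence
  have hI := indep_iSup_of_disjoint (m := fun n => MeasurableSpace.comap (g n) inferInstance)
    (fun n => (hm n).comap_le) hind (S := (s : Set (Lat d))) (T := (s : Set (Lat d))ᶜ)
    disjoint_compl_right
  have hAm : MeasurableSet[⨆ n ∈ (s : Set (Lat d)), MeasurableSpace.comap (g n) inferInstance]
      (⋂ n ∈ s, g n ⁻¹' closedBall (b n) r) :=
    @meas_low d Ω (⨆ n ∈ (s : Set (Lat d)), MeasurableSpace.comap (g n) inferInstance) g b s r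
      fun n hn => Measurable.of_comap_le
        (le_iSup₂_of_le (f := fun n (_ : n ∈ (s : Set (Lat d))) =>
          MeasurableSpace.comap (g n) inferInstance) n hn le_rfl)
  have hBm : MeasurableSet[⨆ n ∈ (s : Set (Lat d))ᶜ, MeasurableSpace.comap (g n) inferInstance]
      {ω | τ ω < ENNReal.ofReal (ρ / 16)} := by
    have h1 := @meas_tail d Ω (⨆ n ∈ (s : Set (Lat d))ᶜ, MeasurableSpace.comap (g n) inferInstance)
      g s (fun n => ENNReal.ofReal (q n)) fun n hn => Measurable.of_comap_le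
        (le_iSup₂_of_le (f := fun n (_ : n ∈ (s : Set (Lat d))ᶜ) =>
          MeasurableSpace.comap (g n) inferInstance) n hn le_rfl)
    exact h1 measurableSet_Iio
  have hAB := (Indep_iff _ _ _).1 hI _ _ hAm hBm
  have hpos : 0 < P ((⋂ n ∈ s, g n ⁻¹' closedBall (b n) r) ∩
      {ω | τ ω < ENNReal.ofReal (ρ / 16)}) := by
    rw [hAB]
    exact ENNReal.mul_pos hA.ne' hB.ne'
  refine hpos.trans_le (measure_mono ?_)
  rintro ω ⟨hω1, hω2⟩
  simp only [mem_iInter, mem_preimage, mem_closedBall, dist_eq_norm] at hω1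
  simp only [mem_ofPred_eq] at hω2 ⊢
  have h1 : ∀ n, ENNReal.ofReal (q n * ‖g n ω - b n‖ ^ 2) ≤
      (if n ∈ s then ENNReal.ofReal (q n * r ^ 2) else 0) +
      (2 * (if n ∈ s then 0 else ENNReal.ofReal (q n) * ‖g n ω‖ₑ ^ 2) +
        2 * ENNReal.ofReal (if n ∈ s then 0 else q n * ‖b n‖ ^ 2)) := by
    intro n
    by_cases hn : n ∈ s
    · simp only [hn, if_true, mul_zero, add_zero, ENNReal.ofReal_zero]
      apply ENNReal.ofReal_le_ofReal
      have := hω1 n hn
      have h0 := hq0 n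
      gcongr
    · simp only [hn, if_false, zero_add]
      rw [← ofReal_norm, ← ENNReal.ofReal_pow (norm_nonneg _), ← ENNReal.ofReal_mul (hq0 n),
        show (2 : ℝ≥0∞) = ENNReal.ofReal 2 by simp,
        ← ENNReal.ofReal_mul (by norm_num), ← ENNReal.ofReal_mul (by norm_num),
        ← ENNReal.ofReal_add (by have := hq0 n; positivity) (by have := hq0 n; positivity)]
      apply ENNReal.ofReal_le_ofReal
      have h2 : ‖g n ω - b n‖ ≤ ‖g n ω‖ + ‖b n‖ := norm_sub_le _ _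
      have h3 : ‖g n ω - b n‖ ^ 2 ≤ 2 * ‖g n ω‖ ^ 2 + 2 * ‖b n‖ ^ 2 := by
        nlinarith [norm_nonneg (g n ω - b n), norm_nonneg (g n ω), norm_nonneg (b n),
          sq_nonneg (‖g n ω‖ - ‖b n‖)]
      have h4 := mul_le_mul_of_nonneg_left h3 (hq0 n)
      linarith
  calc ∑' n, ENNReal.ofReal (q n * ‖g n ω - b n‖ ^ 2)
      ≤ ∑' n, ((if n ∈ s then ENNReal.ofReal (q n * r ^ 2) else 0) +
        (2 * (if n ∈ s then 0 else ENNReal.ofReal (q n) * ‖g n ω‖ₑ ^ 2) +
          2 * ENNReal.ofReal (if n ∈ s then 0 else q n * ‖b n‖ ^ 2))) := ENNReal.tsum_le_tsum h1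
    _ = (∑' n, if n ∈ s then ENNReal.ofReal (q n * r ^ 2) else 0) + (2 * τ ω +
        2 * ENNReal.ofReal (∑' n, if n ∈ s then 0 else q n * ‖b n‖ ^ 2)) := by
        rw [ENNReal.tsum_add, ENNReal.tsum_add, ENNReal.tsum_mul_left, ENNReal.tsum_mul_left,
          ENNReal.ofReal_tsum_of_nonneg hb'0 hb's]
    _ = ENNReal.ofReal (Q * r ^ 2) + (2 * τ ω +
        2 * ENNReal.ofReal (∑' n, if n ∈ s then 0 else q n * ‖b n‖ ^ 2)) := by
        congr 1
        rw [tsum_eq_sum (s := s) (fun n hn => if_neg hn),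
          Finset.sum_congr rfl fun n hn => if_pos hn,
          ← ENNReal.ofReal_sum_of_nonneg fun n _ => mul_nonneg (hq0 n) (sq_nonneg r), hQ,
          Finset.sum_mul]
    _ ≤ ENNReal.ofReal (ρ / 4) + (2 * ENNReal.ofReal (ρ / 16) + 2 * ENNReal.ofReal (ρ / 8)) := by
        gcongr
        rw [hr2, mul_div_assoc', div_le_div_iff₀ (by positivity) (by positivity)]
        nlinarith
    _ = ENNReal.ofReal (5 * ρ / 8) := by
        rw [show (2 : ℝ≥0∞) = ENNReal.ofReal 2 by simp, ← ENNReal.ofReal_mul (by norm_num),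
          ← ENNReal.ofReal_mul (by norm_num), ← ENNReal.ofReal_add (by positivity) (by positivity),
          ← ENNReal.ofReal_add (by positivity) (by positivity)]
        congr 1
        ring
    _ < ENNReal.ofReal ρ := (ENNReal.ofReal_lt_ofReal_iff hρ).2 (by linarith)

theorem weight_eq (n : Lat d) (α : ℝ) :
    (1 + sqNorm n) ^ k * (Real.sqrt (1 + sqNorm n) ^ (-α)) ^ 2 =
      (Real.sqrt (1 + sqNorm n) ^ (2 * (α - k)))⁻¹ := by
  have h0 := sqNorm_nonneg n
  have h1 : 0 < Real.sqrt (1 + sqNorm n) := Real.sqrt_pos.2 (by linarith)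
  have h2 : (1 + sqNorm n) = Real.sqrt (1 + sqNorm n) ^ (2 : ℝ) := by
    rw [Real.rpow_two, Real.sq_sqrt (by linarith)]
  calc (1 + sqNorm n) ^ k * (Real.sqrt (1 + sqNorm n) ^ (-α)) ^ 2
      = (Real.sqrt (1 + sqNorm n) ^ (2 : ℝ)) ^ k * (Real.sqrt (1 + sqNorm n) ^ (-α)) ^ 2 := by
        rw [← h2]
    _ = Real.sqrt (1 + sqNorm n) ^ (2 * (k : ℝ)) * Real.sqrt (1 + sqNorm n) ^ (-α * (2 : ℕ)) := by
        rw [← Real.rpow_natCast, ← Real.rpow_natCast, ← Real.rpow_mul h1.le, ← Real.rpow_mul h1.le]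
    _ = (Real.sqrt (1 + sqNorm n) ^ (2 * (α - k)))⁻¹ := by
        rw [← Real.rpow_add h1, ← Real.rpow_neg h1.le]
        congr 1
        push_cast
        ring

/-- FULL SUPPORT: for every real `α > k + d/2` the random datum lies in every ball of `H^k` with
positive probability. -/
theorem datum_ball_pos {Ω : Type*} [MeasurableSpace Ω] (P : Measure Ω) [IsProbabilityMeasure P]
    (g : Lat d → Ω → ℂ) (hgm : ∀ n, Measurable (g n)) (hind : iIndepFun g P)
    (hg : ∀ n, P.map (g n) = stdComplexGaussian) {α : ℝ} (hα : (k : ℝ) + d / 2 < α)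
    {a : Lat d → ℂ} (ha : MemSobolev k a) {ε : ℝ} (hε : 0 < ε) :
    0 < P {ω | MemSobolev k (datum g α ω) ∧
      MemSobolev k (fun n => datum g α ω n - a n) ∧
      sobolevSq k (fun n => datum g α ω n - a n) < ε} := by
  set c : Lat d → ℝ := fun n => Real.sqrt (1 + sqNorm n) ^ (-α) with hc
  have hc0 : ∀ n, 0 < c n := fun n => by
    have h0 := sqNorm_nonneg n
    exact Real.rpow_pos_of_pos (Real.sqrt_pos.2 (by linarith)) _
  have hw0 : ∀ n : Lat d, 0 ≤ (1 + sqNorm n) ^ k := fun n => by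
    have h0 := sqNorm_nonneg n
    positivity
  have hq : Summable fun n : Lat d => (1 + sqNorm n) ^ k * c n ^ 2 := by
    refine (summable_rpow_weight (d := d) (β := 2 * (α - k)) (by linarith)).congr fun n => ?_
    exact (weight_eq n α).symm
  set b : Lat d → ℂ := fun n => a n * ((c n)⁻¹ : ℝ) with hb
  have hcb : ∀ n, c n ^ 2 * ‖b n‖ ^ 2 = ‖a n‖ ^ 2 := fun n => by
    rw [hb]
    simp only [norm_mul, Complex.norm_real, Real.norm_of_nonneg (inv_nonneg.2 (hc0 n).le)]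
    have := (hc0 n).ne'
    field_simp
  have hbs : Summable fun n => (1 + sqNorm n) ^ k * c n ^ 2 * ‖b n‖ ^ 2 :=
    Summable.congr ha fun n => by rw [mul_assoc, hcb]
  refine (ball_pos P g hgm hind hg (fun n => mul_nonneg (hw0 n) (sq_nonneg _)) hq hbs hε).trans_le
    (measure_mono ?_)
  intro ω hω
  simp only [mem_ofPred_eq] at hω ⊢
  have hE : ∀ n, (1 + sqNorm n) ^ k * c n ^ 2 * ‖g n ω - b n‖ ^ 2 =
      (1 + sqNorm n) ^ k * ‖datum g α ω n - a n‖ ^ 2 := by
    intro n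
    have h1 : datum g α ω n - a n = (g n ω - b n) * ((c n : ℝ) : ℂ) := by
      have h2 : ((c n : ℝ) : ℂ) ≠ 0 := by exact_mod_cast (hc0 n).ne'
      unfold datum
      rw [hb]
      push_cast
      field_simp
      rfl
    rw [h1, norm_mul, Complex.norm_real, Real.norm_of_nonneg (hc0 n).le, mul_pow]
    ring
  simp_rw [hE] at hω
  have hnn : ∀ n, 0 ≤ (1 + sqNorm n) ^ k * ‖datum g α ω n - a n‖ ^ 2 := fun n =>
    mul_nonneg (hw0 n) (sq_nonneg _)
  have hsum : Summable fun n => (1 + sqNorm n) ^ k * ‖datum g α ω n - a n‖ ^ 2 := by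
    have h1 : ∑' n, ENNReal.ofReal ((1 + sqNorm n) ^ k * ‖datum g α ω n - a n‖ ^ 2) ≠ ∞ :=
      (hω.trans ENNReal.ofReal_lt_top).ne
    exact (ENNReal.summable_toReal h1).congr fun n => ENNReal.toReal_ofReal (hnn n)
  rw [← ENNReal.ofReal_tsum_of_nonneg hnn hsum, ENNReal.ofReal_lt_ofReal_iff hε] at hω
  refine ⟨?_, hsum, hω⟩
  unfold MemSobolev
  refine Summable.of_nonneg_of_le (fun n => mul_nonneg (hw0 n) (sq_nonneg _)) (fun n => ?_)
    ((hsum.mul_left 2).add (Summable.mul_left 2 ha))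
  have h2 : ‖datum g α ω n‖ ≤ ‖datum g α ω n - a n‖ + ‖a n‖ := by
    simpa using norm_add_le (datum g α ω n - a n) (a n)
  have h3 : ‖datum g α ω n‖ ^ 2 ≤ 2 * ‖datum g α ω n - a n‖ ^ 2 + 2 * ‖a n‖ ^ 2 := by
    nlinarith [norm_nonneg (datum g α ω n), norm_nonneg (datum g α ω n - a n), norm_nonneg (a n),
      sq_nonneg (‖datum g α ω n - a n‖ - ‖a n‖)]
  have h4 := mul_le_mul_of_nonneg_left h3 (hw0 n)
  linarith

end Vale.Agent.P139.R2.H861
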